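import Mathlib

namespace Vale.Agent.Lib.P024

universe u

/-- `E` is solvably closed: it has no nontrivial abelian extension, i.e. every Galois extension
`L` of `E` with commutative Galois group is trivial (`E → L` is onto). -/
def SolvablyClosed (E : Type u) [Field E] : Prop :=
  ∀ (L : Type u) [Field L] [Algebra E L], IsGalois E L →
    (∀ σ τ : Gal(L/E), σ * τ = τ * σ) → Function.Surjective (algebraMap E L)

/-- The field embedding `j : E₂ → E₁` induces the homomorphism `α : Gal(E₁/F₁) → Gal(E₂/F₂)`: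
`g ∘ j = j ∘ α(g)` for all `g`. -/
def Induces {F₁ E₁ F₂ E₂ : Type u} [Field F₁] [Field E₁] [Algebra F₁ E₁] [Field F₂] [Field E₂]
    [Algebra F₂ E₂] (j : E₂ →+* E₁) (α : Gal(E₁/F₁) →* Gal(E₂/F₂)) : Prop :=
  ∀ (g : Gal(E₁/F₁)) (x : E₂), g (j x) = j (α g x)

end Vale.Agent.Lib.P024
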