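import Mathlib
import Vale.Agent.Lib.P024.Defs

namespace Vale.Agent.Lib.P024

universe u

section restr

variable {F₁ E₁ Ω : Type u} [Field F₁] [Field E₁] [Field Ω] [Algebra F₁ E₁] [Algebra E₁ Ω]
  [Algebra F₁ Ω] [IsScalarTower F₁ E₁ Ω] [Normal F₁ E₁]

/-- Restriction of automorphisms to a normal subextension is continuous for the Krull
topologies. -/
theorem restr_continuous :
    Continuous (AlgEquiv.restrictNormalHom (F := F₁) (K₁ := Ω) E₁) := by
  apply continuous_of_continuousAt_one _ (continuousAt_def.mpr _)
  intro N hN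
  rw [map_one, krullTopology_mem_nhds_one_iff] at hN
  obtain ⟨L', hfin, hO⟩ := hN
  let M : IntermediateField F₁ Ω := L'.map (IsScalarTower.toAlgHom F₁ E₁ Ω)
  have hM : FiniteDimensional F₁ M :=
    Module.Finite.equiv
      (IntermediateField.equivMap L' (IsScalarTower.toAlgHom F₁ E₁ Ω)).toLinearEquiv
  apply mem_nhds_iff.mpr
  refine ⟨M.fixingSubgroup, ?_, IntermediateField.fixingSubgroup_isOpen M, Subgroup.one_mem _⟩
  intro x hx
  apply hO
  simp only [SetLike.mem_coe, IntermediateField.mem_fixingSubgroup_iff] at hx ⊢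
  intro y hy
  have h1 := AlgEquiv.restrictNormal_commutes x E₁ y
  have h2 : x (algebraMap E₁ Ω y) = algebraMap E₁ Ω y := by
    apply hx
    exact ⟨y, hy, rfl⟩
  rw [h2] at h1
  exact (algebraMap E₁ Ω).injective h1

end restr

section target

variable {G : Type u} [Group G]
  {F₂ E₂ : Type u} [Field F₂] [Field E₂] [Algebra F₂ E₂]

/-- The fixed field of the image of `β`. -/
def imgField (β : G →* Gal(E₂/F₂)) : IntermediateField F₂ E₂ :=
  IntermediateField.fixedField β.range

lemma imgField_fixing [IsGalois F₂ E₂] (β : G →* Gal(E₂/F₂))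
    (hopen : IsOpen (Set.range β)) :
    (imgField β).fixingSubgroup = β.range := by
  have hopen' : IsOpen (β.range : Set Gal(E₂/F₂)) := by
    rw [MonoidHom.coe_range]; exact hopen
  have hclosed : IsClosed (β.range : Set Gal(E₂/F₂)) :=
    Subgroup.isClosed_of_isOpen _ hopen'
  exact InfiniteGalois.fixingSubgroup_fixedField ⟨β.range, hclosed⟩

lemma imgField_finite [IsGalois F₂ E₂] (β : G →* Gal(E₂/F₂))
    (hopen : IsOpen (Set.range β)) : FiniteDimensional F₂ (imgField β) := by
  rw [← InfiniteGalois.isOpen_iff_finite]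
  have h := imgField_fixing β hopen
  have hopen' : IsOpen (β.range : Set Gal(E₂/F₂)) := by
    rw [MonoidHom.coe_range]; exact hopen
  rw [h]
  exact hopen'

/-- Corestriction of `β` to the Galois group over the fixed field of its image. -/
def corestr (β : G →* Gal(E₂/F₂)) : G →* Gal(E₂/(imgField β)) :=
  (IntermediateField.fixingSubgroupEquiv (imgField β)).toMonoidHom.comp
    (β.codRestrict (imgField β).fixingSubgroup (fun g => by
      rw [IntermediateField.mem_fixingSubgroup_iff]
      intro x hx
      exact hx ⟨β g, ⟨g, rfl⟩⟩))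

lemma corestr_apply (β : G →* Gal(E₂/F₂)) (g : G) (x : E₂) :
    corestr β g x = β g x := rfl

lemma corestr_surjective [IsGalois F₂ E₂] (β : G →* Gal(E₂/F₂))
    (hopen : IsOpen (Set.range β)) :
    Function.Surjective (corestr β) := by
  intro τ
  have hmem : (τ.restrictScalars F₂) ∈ (imgField β).fixingSubgroup := by
    rw [IntermediateField.mem_fixingSubgroup_iff]
    intro x hx
    exact τ.commutes ⟨x, hx⟩
  rw [imgField_fixing β hopen] at hmem
  obtain ⟨g, hg⟩ := hmem
  refine ⟨g, ?_⟩
  ext x
  rw [corestr_apply, hg]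
  rfl

lemma corestr_continuous [TopologicalSpace G] [IsTopologicalGroup G] [IsGalois F₂ E₂]
    (β : G →* Gal(E₂/F₂)) (hcont : Continuous β)
    (hopen : IsOpen (Set.range β)) : Continuous (corestr β) := by
  apply continuous_of_continuousAt_one _ (continuousAt_def.mpr _)
  intro N hN
  rw [map_one, krullTopology_mem_nhds_one_iff] at hN
  obtain ⟨L', hfin, hO⟩ := hN
  have hK : FiniteDimensional F₂ (imgField β) := imgField_finite β hopen
  let M : IntermediateField F₂ E₂ := L'.restrictScalars F₂
  have hM : FiniteDimensional F₂ M := by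
    have : FiniteDimensional F₂ L' := Module.Finite.trans (imgField β) L'
    exact this
  apply mem_nhds_iff.mpr
  refine ⟨β ⁻¹' (M.fixingSubgroup : Set Gal(E₂/F₂)), ?_,
    (IntermediateField.fixingSubgroup_isOpen M).preimage hcont, ?_⟩
  · intro g hg
    apply hO
    simp only [Set.mem_preimage, SetLike.mem_coe, IntermediateField.mem_fixingSubgroup_iff] at hg ⊢
    intro y hy
    rw [corestr_apply]
    exact hg y hy
  · simp only [Set.mem_preimage, map_one, SetLike.mem_coe]
    exact Subgroup.one_mem _

end target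

end Vale.Agent.Lib.P024
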